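import Crest.Agent.R177.DefsCx

/-!
# A concrete model of the realisation inside a product of copies of `ℝ`
-/

set_option autoImplicit false

namespace Crest.Agent.R177.RealizeAux

open unitInterval Set

open Classical in
/-- Dirac mass -/
noncomputable def dl {α : Type} (a : α) : α → ℝ := fun b => if b = a then 1 else 0

lemma dl_self {α : Type} (a : α) : dl a a = 1 := by simp [dl]

lemma dl_ne {α : Type} {a b : α} (h : b ≠ a) : dl a b = 0 := by simp [dl, h]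

lemma dl_nonneg {α : Type} (a b : α) : 0 ≤ dl a b := by
  unfold dl; split_ifs <;> norm_num

lemma dl_smul {G α : Type} [Group G] [MulAction G α] (g : G) (a b : α) :
    dl (g • a) b = dl a (g⁻¹ • b) := by
  by_cases h : b = g • a
  · subst h; rw [dl_self, inv_smul_smul, dl_self]
  · rw [dl_ne h, dl_ne]
    intro h'
    apply h
    rw [← h', smul_inv_smul]

/-- the ambient space -/
abbrev E (X0 X1 X2 : Type) : Type := (X0 → ℝ) × (X1 → ℝ) × (X2 → ℝ)

variable {X0 X1 X2 : Type} (K : Cx X0 X1 X2)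

/-- vertices -/
noncomputable def ptE (X1 X2 : Type) (x : X0) : E X0 X1 X2 := (dl x, 0, 0)

/-- edges -/
noncomputable def edE (e : X1) : C(I, E X0 X1 X2) :=
  ⟨fun s => (fun x => (1 - (s : ℝ)) * dl (K.s e) x + (s : ℝ) * dl (K.t e) x,
    fun e' => (1 - (s : ℝ)) * (s : ℝ) * dl e e', 0), by fun_prop⟩

/-- triangles -/
noncomputable def trE (f : X2) : C(I × I, E X0 X1 X2) :=
  ⟨fun p => (fun x => (1 - (p.1 : ℝ)) * dl (K.s (K.d2 f)) x
      + (p.1 : ℝ) * (1 - (p.2 : ℝ)) * dl (K.t (K.d2 f)) x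
      + (p.1 : ℝ) * (p.2 : ℝ) * dl (K.t (K.d1 f)) x,
    fun e => (1 - (p.1 : ℝ)) * ((p.1 : ℝ) * (1 - (p.2 : ℝ))) * dl (K.d2 f) e
      + ((p.1 : ℝ) * (1 - (p.2 : ℝ))) * ((p.1 : ℝ) * (p.2 : ℝ)) * dl (K.d0 f) e
      + (1 - (p.1 : ℝ)) * ((p.1 : ℝ) * (p.2 : ℝ)) * dl (K.d1 f) e,
    fun f' => (1 - (p.1 : ℝ)) * ((p.1 : ℝ) * (1 - (p.2 : ℝ))) * ((p.1 : ℝ) * (p.2 : ℝ))
      * dl f f'), by fun_prop⟩

lemma edE_1 (e : X1) (s : I) (x : X0) :
    (edE K e s).1 x = (1 - (s : ℝ)) * dl (K.s e) x + (s : ℝ) * dl (K.t e) x := rfl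

lemma edE_2 (e : X1) (s : I) (e' : X1) :
    (edE K e s).2.1 e' = (1 - (s : ℝ)) * (s : ℝ) * dl e e' := rfl

lemma edE_3 (e : X1) (s : I) (f : X2) : (edE K e s).2.2 f = 0 := rfl

lemma trE_1 (f : X2) (p : I × I) (x : X0) :
    (trE K f p).1 x = (1 - (p.1 : ℝ)) * dl (K.s (K.d2 f)) x
      + (p.1 : ℝ) * (1 - (p.2 : ℝ)) * dl (K.t (K.d2 f)) x
      + (p.1 : ℝ) * (p.2 : ℝ) * dl (K.t (K.d1 f)) x := rfl

lemma trE_2 (f : X2) (p : I × I) (e : X1) :
    (trE K f p).2.1 e = (1 - (p.1 : ℝ)) * ((p.1 : ℝ) * (1 - (p.2 : ℝ))) * dl (K.d2 f) e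
      + ((p.1 : ℝ) * (1 - (p.2 : ℝ))) * ((p.1 : ℝ) * (p.2 : ℝ)) * dl (K.d0 f) e
      + (1 - (p.1 : ℝ)) * ((p.1 : ℝ) * (p.2 : ℝ)) * dl (K.d1 f) e := rfl

lemma trE_3 (f : X2) (p : I × I) (f' : X2) :
    (trE K f p).2.2 f' = (1 - (p.1 : ℝ)) * ((p.1 : ℝ) * (1 - (p.2 : ℝ))) * ((p.1 : ℝ) * (p.2 : ℝ))
      * dl f f' := rfl

lemma ptE_1 (x y : X0) : (ptE X1 X2 x).1 y = dl x y := rfl
lemma ptE_2 (x : X0) (e : X1) : (ptE X1 X2 x).2.1 e = 0 := rfl
lemma ptE_3 (x : X0) (f : X2) : (ptE X1 X2 x).2.2 f = 0 := rfl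

lemma E_ext {a b : E X0 X1 X2} (h1 : ∀ x, a.1 x = b.1 x) (h2 : ∀ x, a.2.1 x = b.2.1 x)
    (h3 : ∀ x, a.2.2 x = b.2.2 x) : a = b :=
  Prod.ext (funext h1) (Prod.ext (funext h2) (funext h3))

lemma edE_zero (e : X1) : edE K e 0 = ptE X1 X2 (K.s e) := by
  refine E_ext ?_ ?_ ?_ <;> intro x <;> simp [edE_1, edE_2, edE_3, ptE_1, ptE_2, ptE_3]

lemma edE_one (e : X1) : edE K e 1 = ptE X1 X2 (K.t e) := by
  refine E_ext ?_ ?_ ?_ <;> intro x <;> simp [edE_1, edE_2, edE_3, ptE_1, ptE_2, ptE_3]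

lemma trE_s0 (f : X2) (s : I) : trE K f (s, 0) = edE K (K.d2 f) s := by
  refine E_ext ?_ ?_ ?_ <;> intro x <;> simp [edE_1, edE_2, edE_3, trE_1, trE_2, trE_3]

lemma trE_0t (f : X2) (t : I) : trE K f (0, t) = ptE X1 X2 (K.s (K.d2 f)) := by
  refine E_ext ?_ ?_ ?_ <;> intro x <;> simp [ptE_1, ptE_2, ptE_3, trE_1, trE_2, trE_3]

variable {K}

lemma trE_s1 (hs : K.Simplicial) (f : X2) (s : I) : trE K f (s, 1) = edE K (K.d1 f) s := by
  refine E_ext ?_ ?_ ?_ <;> intro x <;> simp [edE_1, edE_2, edE_3, trE_1, trE_2, trE_3, hs.v0]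

lemma trE_1t (hs : K.Simplicial) (f : X2) (t : I) : trE K f (1, t) = edE K (K.d0 f) t := by
  refine E_ext ?_ ?_ ?_ <;> intro x <;>
    simp [edE_1, edE_2, edE_3, trE_1, trE_2, trE_3, hs.v1, hs.v2]

lemma ioo_pos (s : Set.Ioo (0 : I) 1) : (0 : ℝ) < (s.1 : ℝ) := s.2.1

lemma ioo_lt (s : Set.Ioo (0 : I) 1) : (0 : ℝ) < 1 - (s.1 : ℝ) := sub_pos.2 s.2.2

lemma cellMap_injective (hs : K.Simplicial) :
    Function.Injective (cellMap (ptE X1 X2) (edE K) (trE K)) := by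
  have hE : ∀ (e : X1) (s : Set.Ioo (0 : I) 1), 0 < (edE K e s.1).2.1 e := by
    intro e s
    rw [edE_2, dl_self, mul_one]
    exact mul_pos (ioo_lt s) (ioo_pos s)
  have hT : ∀ (f : X2) (s t : Set.Ioo (0 : I) 1), 0 < (trE K f (s.1, t.1)).2.2 f := by
    intro f s t
    rw [trE_3, dl_self, mul_one]
    exact mul_pos (mul_pos (ioo_lt s) (mul_pos (ioo_pos s) (ioo_lt t)))
      (mul_pos (ioo_pos s) (ioo_pos t))
  rintro (x | ⟨e, s⟩ | ⟨f, s, t⟩) (x' | ⟨e', s'⟩ | ⟨f', s', t'⟩) h <;> simp only [cellMap] at h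
  · by_contra hne
    have hne' : x ≠ x' := fun h' => hne (by rw [h'])
    have := congrArg (fun y : E X0 X1 X2 => y.1 x) h
    simp only [ptE_1, dl_self, dl_ne hne'] at this
    exact one_ne_zero this
  · have := hE e' s'
    rw [← h, ptE_2] at this
    exact absurd this (lt_irrefl _)
  · have := hT f' s' t'
    rw [← h, ptE_3] at this
    exact absurd this (lt_irrefl _)
  · have := hE e s
    rw [h, ptE_2] at this
    exact absurd this (lt_irrefl _)
  · have he : e = e' := by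
      by_contra hne
      have := hE e s
      rw [h, edE_2, dl_ne hne, mul_zero] at this
      exact absurd this (lt_irrefl _)
    subst he
    have := congrArg (fun y : E X0 X1 X2 => y.1 (K.t e)) h
    simp only [edE_1, dl_self, dl_ne (hs.s_ne_t e).symm, mul_zero, mul_one, zero_add] at this
    have hs' : s = s' := Subtype.ext (Subtype.ext this)
    rw [hs']
  · have := hT f' s' t'
    rw [← h, edE_3] at this
    exact absurd this (lt_irrefl _)
  · have := hT f s t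
    rw [h, ptE_3] at this
    exact absurd this (lt_irrefl _)
  · have := hT f s t
    rw [h, edE_3] at this
    exact absurd this (lt_irrefl _)
  · have hf : f = f' := by
      by_contra hne
      have := hT f s t
      rw [h, trE_3, dl_ne hne, mul_zero] at this
      exact absurd this (lt_irrefl _)
    subst hf
    have n01 : K.s (K.d2 f) ≠ K.t (K.d2 f) := hs.s_ne_t _
    have n02 : K.s (K.d2 f) ≠ K.t (K.d1 f) := by rw [← hs.v0]; exact hs.s_ne_t _
    have n12 : K.t (K.d2 f) ≠ K.t (K.d1 f) := by rw [← hs.v1, ← hs.v2]; exact hs.s_ne_t _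
    have h0 := congrArg (fun y : E X0 X1 X2 => y.1 (K.s (K.d2 f))) h
    simp only [trE_1, dl_self, dl_ne n01, dl_ne n02, mul_zero, mul_one, add_zero] at h0
    have h2 := congrArg (fun y : E X0 X1 X2 => y.1 (K.t (K.d1 f))) h
    simp only [trE_1, dl_self, dl_ne n02.symm, dl_ne n12.symm, mul_zero, mul_one, add_zero,
      zero_add] at h2
    have hs' : s = s' := Subtype.ext (Subtype.ext (by linarith))
    subst hs'
    have ht' : t = t' := Subtype.ext (Subtype.ext (mul_left_cancel₀ (ioo_pos s).ne' h2))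
    rw [ht']

variable (K)

/-- the carrier of the realisation -/
def YS : Set (E X0 X1 X2) := Set.range (cellMap (ptE X1 X2) (edE K) (trE K))

lemma ptE_mem (x : X0) : ptE X1 X2 x ∈ YS K := ⟨Sum.inl x, rfl⟩

lemma edE_mem (e : X1) (s : I) : edE K e s ∈ YS K := by
  by_cases h0 : s = 0
  · rw [h0, edE_zero]; exact ptE_mem K _
  by_cases h1 : s = 1
  · rw [h1, edE_one]; exact ptE_mem K _
  exact ⟨Sum.inr (Sum.inl (e, ⟨s, unitInterval.pos_iff_ne_zero.2 h0,
    unitInterval.lt_one_iff_ne_one.2 h1⟩)), rfl⟩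

variable {K}

lemma trE_mem (hs : K.Simplicial) (f : X2) (p : I × I) : trE K f p ∈ YS K := by
  obtain ⟨s, t⟩ := p
  by_cases h0 : s = 0
  · rw [h0, trE_0t]; exact ptE_mem K _
  by_cases h1 : s = 1
  · rw [h1, trE_1t hs]; exact edE_mem K _ _
  by_cases h2 : t = 0
  · rw [h2, trE_s0]; exact edE_mem K _ _
  by_cases h3 : t = 1
  · rw [h3, trE_s1 hs]; exact edE_mem K _ _
  exact ⟨Sum.inr (Sum.inr (f, ⟨s, unitInterval.pos_iff_ne_zero.2 h0,
    unitInterval.lt_one_iff_ne_one.2 h1⟩, ⟨t, unitInterval.pos_iff_ne_zero.2 h2,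
    unitInterval.lt_one_iff_ne_one.2 h3⟩)), rfl⟩

section Action

variable {G : Type} [Group G] [MulAction G X0] [MulAction G X1] [MulAction G X2]

/-- the action on the ambient space -/
def actE (g : G) (y : E X0 X1 X2) : E X0 X1 X2 :=
  (fun x => y.1 (g⁻¹ • x), fun e => y.2.1 (g⁻¹ • e), fun f => y.2.2 (g⁻¹ • f))

lemma actE_one (y : E X0 X1 X2) : actE (1 : G) y = y := by
  refine E_ext ?_ ?_ ?_ <;> intro x <;> simp [actE]

lemma actE_mul (g h : G) (y : E X0 X1 X2) : actE (g * h) y = actE g (actE h y) := by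
  refine E_ext ?_ ?_ ?_ <;> intro x <;> simp [actE, mul_smul]

lemma continuous_actE (g : G) : Continuous (actE g : E X0 X1 X2 → E X0 X1 X2) := by
  unfold actE; fun_prop

lemma actE_pt (g : G) (x : X0) : ptE X1 X2 (g • x) = actE g (ptE X1 X2 x) := by
  refine E_ext ?_ ?_ ?_ <;> intro y <;> simp [actE, ptE_1, ptE_2, ptE_3, dl_smul]

lemma actE_ed (ha : K.Act G) (g : G) (e : X1) (s : I) :
    edE K (g • e) s = actE g (edE K e s) := by
  refine E_ext ?_ ?_ ?_ <;> intro y <;>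
    simp [actE, edE_1, edE_2, edE_3, dl_smul, ha.s_smul, ha.t_smul]

lemma actE_tr (ha : K.Act G) (g : G) (f : X2) (p : I × I) :
    trE K (g • f) p = actE g (trE K f p) := by
  refine E_ext ?_ ?_ ?_ <;> intro y <;>
    simp [actE, trE_1, trE_2, trE_3, dl_smul, ha.s_smul, ha.t_smul, ha.d0_smul, ha.d1_smul,
      ha.d2_smul]

lemma actE_mem (ha : K.Act G) (g : G) {y : E X0 X1 X2} (hy : y ∈ YS K) : actE g y ∈ YS K := by
  obtain ⟨(x | ⟨e, s⟩ | ⟨f, s, t⟩), rfl⟩ := hy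
  · exact ⟨Sum.inl (g • x), actE_pt g x⟩
  · exact ⟨Sum.inr (Sum.inl (g • e, s)), actE_ed ha g e s⟩
  · exact ⟨Sum.inr (Sum.inr (g • f, s, t)), actE_tr ha g f _⟩

/-- the action on the realisation -/
@[reducible] def actY (ha : K.Act G) : MulAction G (YS K) where
  smul g y := ⟨actE g y.1, actE_mem ha g y.2⟩
  one_smul y := Subtype.ext (actE_one y.1)
  mul_smul g h y := Subtype.ext (actE_mul g h y.1)

/-- fibres of an equivariant map to a free `G`-set from a cofinite `G`-set are finite -/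
lemma fibre_finite {α β : Type} [MulAction G α] [MulAction G β]
    (hfree : ∀ (g : G) (x : α), g • x = x → g = 1)
    (hfin : Finite (MulAction.orbitRel.Quotient G β)) (φ : β → α)
    (hφ : ∀ (g : G) b, φ (g • b) = g • φ b) (x : α) : {b | φ b = x}.Finite := by
  refine Set.Finite.of_finite_image
    (f := (Quotient.mk (MulAction.orbitRel G β) : β → MulAction.orbitRel.Quotient G β))
    (Set.toFinite _) ?_
  intro b hb b' hb' h
  obtain ⟨g, hg⟩ : b ∈ MulAction.orbit G b' := Quotient.exact h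
  have hg' : g • b' = b := hg
  have hb1 : φ b = x := hb
  have hb2 : φ b' = x := hb'
  have : g = 1 := hfree g x (by rw [← hb2, ← hφ, hg', hb1, hb2])
  rw [← hg', this, one_smul]

end Action

end Crest.Agent.R177.RealizeAux
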