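import Crest.Agent.R177.Realize.Model

/-!
# Topology of the concrete model
-/

set_option autoImplicit false

namespace Crest.Agent.R177.RealizeAux

open unitInterval Set

variable {X0 X1 X2 : Type} {K : Cx X0 X1 X2}

/-- vertices in the realisation -/
noncomputable def ptY (K : Cx X0 X1 X2) (x : X0) : YS K := ⟨ptE X1 X2 x, ptE_mem K x⟩

/-- edges in the realisation -/
noncomputable def edY (K : Cx X0 X1 X2) (e : X1) : C(I, YS K) :=
  ⟨fun s => ⟨edE K e s, edE_mem K e s⟩, (edE K e).continuous.subtype_mk _⟩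

/-- triangles in the realisation -/
noncomputable def trY (hs : K.Simplicial) (f : X2) : C(I × I, YS K) :=
  ⟨fun p => ⟨trE K f p, trE_mem hs f p⟩, (trE K f).continuous.subtype_mk _⟩

lemma cellMap_val (hs : K.Simplicial) (o : OCell X0 X1 X2) :
    (cellMap (ptY K) (edY K) (trY hs) o).1 = cellMap (ptE X1 X2) (edE K) (trE K) o := by
  rcases o with x | ⟨e, s⟩ | ⟨f, s, t⟩ <;> rfl

lemma cellMapY_bijective (hs : K.Simplicial) :
    Function.Bijective (cellMap (ptY K) (edY K) (trY hs)) := by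
  constructor
  · intro o o' h
    apply cellMap_injective hs
    rw [← cellMap_val hs, ← cellMap_val hs, h]
  · rintro ⟨y, o, rfl⟩
    exact ⟨o, Subtype.ext (cellMap_val hs o)⟩

/-- closed cells -/
def cl (hs : K.Simplicial) : X0 ⊕ X1 ⊕ X2 → Set (YS K)
  | Sum.inl x => {ptY K x}
  | Sum.inr (Sum.inl e) => Set.range (edY K e)
  | Sum.inr (Sum.inr f) => Set.range (trY hs f)

/-- vertices of a cell -/
def inc (K : Cx X0 X1 X2) : X0 ⊕ X1 ⊕ X2 → Set X0
  | Sum.inl x => {x}
  | Sum.inr (Sum.inl e) => {K.s e, K.t e}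
  | Sum.inr (Sum.inr f) => {K.s (K.d2 f), K.t (K.d2 f), K.t (K.d1 f)}

/-- open stars -/
def star (K : Cx X0 X1 X2) (x : X0) : Set (YS K) := {y | 0 < y.1.1 x}

lemma isOpen_star (x : X0) : IsOpen (star K x) :=
  isOpen_lt continuous_const (by fun_prop)

lemma isCompact_cl (hs : K.Simplicial) (c : X0 ⊕ X1 ⊕ X2) : IsCompact (cl hs c) := by
  rcases c with x | e | f
  · exact isCompact_singleton
  · exact isCompact_range (edY K e).continuous
  · exact isCompact_range (trY hs f).continuous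

lemma exists_cl (hs : K.Simplicial) (y : YS K) : ∃ c, y ∈ cl hs c := by
  obtain ⟨o, rfl⟩ := (cellMapY_bijective hs).2 y
  rcases o with x | ⟨e, s⟩ | ⟨f, s, t⟩
  · exact ⟨Sum.inl x, rfl⟩
  · exact ⟨Sum.inr (Sum.inl e), s.1, rfl⟩
  · exact ⟨Sum.inr (Sum.inr f), (s.1, t.1), rfl⟩

lemma exists_star (y : YS K) : ∃ x, y ∈ star K x := by
  obtain ⟨y, o, rfl⟩ := y
  rcases o with x | ⟨e, s⟩ | ⟨f, s, t⟩
  · refine ⟨x, ?_⟩
    show 0 < (ptE X1 X2 x).1 x
    rw [ptE_1, dl_self]; exact one_pos
  · refine ⟨K.s e, ?_⟩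
    show 0 < (edE K e s.1).1 (K.s e)
    rw [edE_1, dl_self, mul_one]
    exact add_pos_of_pos_of_nonneg (ioo_lt s) (mul_nonneg (ioo_pos s).le (dl_nonneg _ _))
  · refine ⟨K.s (K.d2 f), ?_⟩
    show 0 < (trE K f (s.1, t.1)).1 (K.s (K.d2 f))
    rw [trE_1, dl_self, mul_one]
    exact add_pos_of_pos_of_nonneg (add_pos_of_pos_of_nonneg (ioo_lt s)
      (mul_nonneg (mul_pos (ioo_pos s) (ioo_lt t)).le (dl_nonneg _ _)))
      (mul_nonneg (mul_pos (ioo_pos s) (ioo_pos t)).le (dl_nonneg _ _))

lemma inc_finite (c : X0 ⊕ X1 ⊕ X2) : (inc K c).Finite := by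
  rcases c with x | e | f <;> simp only [inc] <;> exact Set.toFinite _

lemma mem_inc (hs : K.Simplicial) {c : X0 ⊕ X1 ⊕ X2} {y : YS K} {x : X0} (hc : y ∈ cl hs c)
    (hx : y ∈ star K x) : x ∈ inc K c := by
  by_contra hn
  rcases c with x' | e | f
  · have hy : y = ptY K x' := hc
    subst hy
    have hx' : 0 < (ptE X1 X2 x').1 x := hx
    rw [ptE_1, dl_ne hn] at hx'
    exact lt_irrefl _ hx'
  · obtain ⟨s, rfl⟩ := hc
    have hx' : 0 < (edE K e s).1 x := hx
    simp only [inc, Set.mem_insert_iff, Set.mem_singleton_iff, not_or] at hn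
    rw [edE_1, dl_ne hn.1, dl_ne hn.2] at hx'
    simp at hx'
  · obtain ⟨p, rfl⟩ := hc
    have hx' : 0 < (trE K f p).1 x := hx
    simp only [inc, Set.mem_insert_iff, Set.mem_singleton_iff, not_or] at hn
    rw [trE_1, dl_ne hn.1, dl_ne hn.2.1, dl_ne hn.2.2] at hx'
    simp at hx'

section Action

variable {G : Type} [Group G] [MulAction G X0] [MulAction G X1] [MulAction G X2]

lemma inc_finite' (ha : K.Act G) (x : X0) : {c | x ∈ inc K c}.Finite := by
  have h1 := fibre_finite ha.free ha.fin1 K.s ha.s_smul x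
  have h2 := fibre_finite ha.free ha.fin1 K.t ha.t_smul x
  have h3 := fibre_finite ha.free ha.fin2 (fun f => K.s (K.d2 f))
    (fun g f => by rw [ha.d2_smul, ha.s_smul]) x
  have h4 := fibre_finite ha.free ha.fin2 (fun f => K.t (K.d2 f))
    (fun g f => by rw [ha.d2_smul, ha.t_smul]) x
  have h5 := fibre_finite ha.free ha.fin2 (fun f => K.t (K.d1 f))
    (fun g f => by rw [ha.d1_smul, ha.t_smul]) x
  refine ((Set.finite_singleton (Sum.inl x)).union
    ((((h1.union h2).image (fun e => Sum.inr (Sum.inl e)))).union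
      (((h3.union h4).union h5).image (fun f => Sum.inr (Sum.inr f))))).subset ?_
  rintro (x' | e | f) hc
  · left
    have : x = x' := hc
    rw [this]; rfl
  · right; left
    refine ⟨e, ?_, rfl⟩
    rcases hc with h | h
    · left; exact h.symm
    · right; exact Eq.symm h
  · right; right
    refine ⟨f, ?_, rfl⟩
    rcases hc with h | h | h
    · left; left; exact h.symm
    · left; right; exact h.symm
    · right; exact Eq.symm h

lemma locallyFinite_cl (hs : K.Simplicial) (ha : K.Act G) : LocallyFinite (cl hs) := by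
  intro y
  obtain ⟨x, hx⟩ := exists_star y
  refine ⟨star K x, (isOpen_star x).mem_nhds hx, (inc_finite' ha x).subset ?_⟩
  rintro c ⟨z, hz1, hz2⟩
  exact mem_inc hs hz1 hz2

lemma closed_of (hs : K.Simplicial) (ha : K.Act G) (A : Set (YS K))
    (h1 : ∀ e, IsClosed (edY K e ⁻¹' A)) (h2 : ∀ f, IsClosed (trY hs f ⁻¹' A)) : IsClosed A := by
  have hA : A = ⋃ c, (cl hs c ∩ A) := by
    ext y
    constructor
    · intro hy
      obtain ⟨c, hc⟩ := exists_cl hs y
      exact Set.mem_iUnion.2 ⟨c, hc, hy⟩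
    · intro hy
      obtain ⟨c, hc⟩ := Set.mem_iUnion.1 hy
      exact hc.2
  rw [hA]
  refine ((locallyFinite_cl hs ha).subset (fun c => Set.inter_subset_left)).isClosed_iUnion ?_
  rintro (x | e | f)
  · exact ((Set.finite_singleton (ptY K x)).subset Set.inter_subset_left).isClosed
  · have : cl hs (Sum.inr (Sum.inl e)) ∩ A = edY K e '' (edY K e ⁻¹' A) := by
      rw [Set.image_preimage_eq_range_inter]; rfl
    rw [this]
    exact ((h1 e).isCompact.image (edY K e).continuous).isClosed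
  · have : cl hs (Sum.inr (Sum.inr f)) ∩ A = trY hs f '' (trY hs f ⁻¹' A) := by
      rw [Set.image_preimage_eq_range_inter]; rfl
    rw [this]
    exact ((h2 f).isCompact.image (trY hs f).continuous).isClosed

lemma locallyCompact (hs : K.Simplicial) (ha : K.Act G) : LocallyCompactSpace (YS K) := by
  have : WeaklyLocallyCompactSpace (YS K) := ⟨fun y => by
    obtain ⟨x, hx⟩ := exists_star y
    refine ⟨⋃ c ∈ {c | x ∈ inc K c}, cl hs c,
      (inc_finite' ha x).isCompact_biUnion (fun c _ => isCompact_cl hs c), ?_⟩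
    refine Filter.mem_of_superset ((isOpen_star x).mem_nhds hx) ?_
    intro z hz
    obtain ⟨c, hc⟩ := exists_cl hs z
    exact Set.mem_biUnion (mem_inc hs hc hz) hc⟩
  infer_instance

lemma star_finite (hs : K.Simplicial) (ha : K.Act G) {L : Set (YS K)} (hL : IsCompact L) :
    {x | (star K x ∩ L).Nonempty}.Finite := by
  have h := (locallyFinite_cl hs ha).finite_nonempty_inter_compact hL
  refine (h.biUnion (fun c _ => inc_finite (K := K) c)).subset ?_
  rintro x ⟨z, hz1, hz2⟩
  obtain ⟨c, hc⟩ := exists_cl hs z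
  exact Set.mem_biUnion (show (cl hs c ∩ L).Nonempty from ⟨z, hc, hz2⟩) (mem_inc hs hc hz1)

lemma properlyDiscontinuous (hs : K.Simplicial) (ha : K.Act G) :
    letI := actY ha
    ProperlyDiscontinuousSMul G (YS K) := by
  let := actY ha
  refine ⟨fun {A B} hA hB => ?_⟩
  have h1 := star_finite hs ha hA
  have h2 := star_finite hs ha hB
  have h3 : ∀ x x' : X0, {g : G | g • x = x'}.Finite := by
    intro x x'
    refine Set.Subsingleton.finite ?_
    intro g hg g' hg'
    have hg1 : g • x = x' := hg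
    have hg2 : g' • x = x' := hg'
    have : g'⁻¹ * g = 1 := ha.free _ x (by rw [mul_smul, hg1, ← hg2, inv_smul_smul])
    exact (inv_mul_eq_one.1 this).symm
  refine (h1.biUnion (fun x _ => h2.biUnion (fun x' _ => h3 x x'))).subset ?_
  rintro g ⟨z, ⟨y, hy, rfl⟩, hz⟩
  obtain ⟨x, hx⟩ := exists_star y
  refine Set.mem_biUnion (show (star K x ∩ A).Nonempty from ⟨y, hx, hy⟩) ?_
  refine Set.mem_biUnion (x := g • x) ⟨g • y, ?_, hz⟩ rfl
  show 0 < y.1.1 (g⁻¹ • g • x)
  rw [inv_smul_smul]
  exact hx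

lemma continuousConstSMul (ha : K.Act G) :
    letI := actY ha
    ContinuousConstSMul G (YS K) := by
  let := actY ha
  exact ⟨fun g => ((continuous_actE g).comp continuous_subtype_val).subtype_mk _⟩

lemma isCancelSMul (hs : K.Simplicial) (ha : K.Act G) :
    letI := actY ha
    IsCancelSMul G (YS K) := by
  let := actY ha
  refine isCancelSMul_iff_eq_one_of_smul_eq.2 ?_
  rintro g ⟨y, o, rfl⟩ h
  have h' : actE g (cellMap (ptE X1 X2) (edE K) (trE K) o) =
      cellMap (ptE X1 X2) (edE K) (trE K) o := congrArg Subtype.val h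
  rcases o with x | ⟨e, s⟩ | ⟨f, s, t⟩
  · have : (Sum.inl (g • x) : OCell X0 X1 X2) = Sum.inl x :=
      cellMap_injective hs ((actE_pt g x).trans h')
    exact ha.free g x (Sum.inl.inj this)
  · have : (Sum.inr (Sum.inl (g • e, s)) : OCell X0 X1 X2) = Sum.inr (Sum.inl (e, s)) :=
      cellMap_injective hs ((actE_ed ha g e s).trans h')
    have he : g • e = e := congrArg Prod.fst (Sum.inl.inj (Sum.inr.inj this))
    exact ha.free g (K.s e) (by rw [← ha.s_smul, he])
  · have : (Sum.inr (Sum.inr (g • f, s, t)) : OCell X0 X1 X2) = Sum.inr (Sum.inr (f, s, t)) :=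
      cellMap_injective hs ((actE_tr ha g f _).trans h')
    have hf : g • f = f := congrArg Prod.fst (Sum.inr.inj (Sum.inr.inj this))
    exact ha.free g (K.s (K.d2 f)) (by rw [← ha.s_smul, ← ha.d2_smul, hf])

end Action

end Crest.Agent.R177.RealizeAux
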